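import Vale.Agent.P087.Main

namespace Vale.Agent.Results.P087.Gap

open Vale.Agent.P087

theorem result : ∃ n, 1 ≤ n ∧ ∃ (H : Type) (_ : NormedAddCommGroup H) (_ : InnerProductSpace ℂ H)
    (_ : CompleteSpace H), Counter n H := main

end Vale.Agent.Results.P087.Gap
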